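import Mathlib

/-!
Abstract Schur / Gram lemmas (Carleson–Hunt, row CH-BES, part (a)).
-/

namespace Vale.Agent.P091.CH.H663

open MeasureTheory Finset
open scoped BigOperators ComplexConjugate

section Abstract

variable {H : Type*} [NormedAddCommGroup H] [InnerProductSpace ℂ H] {ι : Type*}

/-- The quadratic form bound: `∑ K i j |c i| |c j| ≤ C ∑ |c i|²` for a symmetric kernel with row
sums at most `C`. -/
theorem schur_form (s : Finset ι) (a : ι → ℝ) (K : ι → ι → ℝ) (C : ℝ)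
    (h0 : ∀ i ∈ s, ∀ j ∈ s, 0 ≤ K i j)
    (hsymm : ∀ i ∈ s, ∀ j ∈ s, K i j = K j i)
    (hC : ∀ i ∈ s, ∑ j ∈ s, K i j ≤ C) :
    ∑ i ∈ s, ∑ j ∈ s, a i * a j * K i j ≤ C * ∑ i ∈ s, a i ^ 2 := by
  have h1 : ∑ i ∈ s, ∑ j ∈ s, a i * a j * K i j ≤
      ∑ i ∈ s, ∑ j ∈ s, (a i ^ 2 / 2 * K i j + a j ^ 2 / 2 * K i j) := by
    refine Finset.sum_le_sum fun i hi => Finset.sum_le_sum fun j hj => ?_
    have := mul_nonneg (sq_nonneg (a i - a j)) (h0 i hi j hj)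
    nlinarith only [this]
  have h2 : ∑ i ∈ s, ∑ j ∈ s, (a i ^ 2 / 2 * K i j + a j ^ 2 / 2 * K i j) =
      ∑ i ∈ s, a i ^ 2 * ∑ j ∈ s, K i j := by
    have e1 : ∑ i ∈ s, ∑ j ∈ s, a j ^ 2 / 2 * K i j = ∑ i ∈ s, ∑ j ∈ s, a i ^ 2 / 2 * K i j := by
      rw [Finset.sum_comm]
      exact Finset.sum_congr rfl fun i hi => Finset.sum_congr rfl fun j hj => by
        rw [hsymm j hj i hi]
    simp only [Finset.sum_add_distrib]
    rw [e1, ← Finset.sum_add_distrib]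
    refine Finset.sum_congr rfl fun i _ => ?_
    rw [← Finset.mul_sum]
    ring
  rw [h2] at h1
  refine h1.trans ?_
  rw [Finset.mul_sum]
  refine Finset.sum_le_sum fun i hi => ?_
  have := mul_le_mul_of_nonneg_left (hC i hi) (sq_nonneg (a i))
  linarith only [this]

theorem norm_sum_sq_le_form (s : Finset ι) (v : ι → H) (c : ι → ℂ) :
    ‖∑ i ∈ s, c i • v i‖ ^ 2 ≤ ∑ i ∈ s, ∑ j ∈ s, ‖c i‖ * ‖c j‖ * ‖inner ℂ (v i) (v j)‖ := by
  have h1 : ‖∑ i ∈ s, c i • v i‖ ^ 2 = ‖inner ℂ (∑ i ∈ s, c i • v i) (∑ i ∈ s, c i • v i)‖ := by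
    rw [inner_self_eq_norm_sq_to_K]
    simp
  rw [h1, sum_inner]
  refine (norm_sum_le _ _).trans (Finset.sum_le_sum fun i _ => ?_)
  rw [inner_sum]
  refine (norm_sum_le _ _).trans (Finset.sum_le_sum fun j _ => ?_)
  rw [inner_smul_left, inner_smul_right, norm_mul, norm_mul, RCLike.norm_conj]
  apply le_of_eq
  ring

/-- Schur test for the Gram matrix. -/
theorem norm_sum_sq_le (s : Finset ι) (v : ι → H) (c : ι → ℂ) (K : ι → ι → ℝ) (C : ℝ)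
    (hK : ∀ i ∈ s, ∀ j ∈ s, ‖inner ℂ (v i) (v j)‖ ≤ K i j)
    (hsymm : ∀ i ∈ s, ∀ j ∈ s, K i j = K j i)
    (hC : ∀ i ∈ s, ∑ j ∈ s, K i j ≤ C) :
    ‖∑ i ∈ s, c i • v i‖ ^ 2 ≤ C * ∑ i ∈ s, ‖c i‖ ^ 2 := by
  refine (norm_sum_sq_le_form s v c).trans (le_trans ?_ (schur_form s (fun i => ‖c i‖) K C
    (fun i hi j hj => (norm_nonneg _).trans (hK i hi j hj)) hsymm hC))
  refine Finset.sum_le_sum fun i hi => Finset.sum_le_sum fun j hj => ?_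
  exact mul_le_mul_of_nonneg_left (hK i hi j hj) (by positivity)

/-- From the synthesis bound to the analysis bound. -/
theorem sum_inner_sq_le_of (s : Finset ι) (v : ι → H) (f : H) (C : ℝ) (hC : 0 ≤ C)
    (h : ‖∑ i ∈ s, (inner ℂ (v i) f) • v i‖ ^ 2 ≤ C * ∑ i ∈ s, ‖inner ℂ (v i) f‖ ^ 2) :
    ∑ i ∈ s, ‖inner ℂ (v i) f‖ ^ 2 ≤ C * ‖f‖ ^ 2 := by
  set S : ℝ := ∑ i ∈ s, ‖inner ℂ (v i) f‖ ^ 2 with hS
  have hS0 : 0 ≤ S := Finset.sum_nonneg fun i _ => by positivity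
  have h1 : S = ‖inner ℂ (∑ i ∈ s, (inner ℂ (v i) f) • v i) f‖ := by
    rw [sum_inner]
    have : ∀ i ∈ s, inner ℂ ((inner ℂ (v i) f) • v i) f = ((‖inner ℂ (v i) f‖ ^ 2 : ℝ) : ℂ) := by
      intro i _
      rw [inner_smul_left, ← Complex.normSq_eq_conj_mul_self, Complex.normSq_eq_norm_sq]
    rw [Finset.sum_congr rfl this, ← Complex.ofReal_sum, Complex.norm_real, Real.norm_eq_abs,
      abs_of_nonneg hS0]
  have h2 : S ≤ ‖∑ i ∈ s, (inner ℂ (v i) f) • v i‖ * ‖f‖ := by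
    rw [h1]; exact norm_inner_le_norm _ _
  have h3 : S ^ 2 ≤ (C * S) * ‖f‖ ^ 2 := by
    calc S ^ 2 ≤ (‖∑ i ∈ s, (inner ℂ (v i) f) • v i‖ * ‖f‖) ^ 2 := by
          exact pow_le_pow_left₀ hS0 h2 2
      _ = ‖∑ i ∈ s, (inner ℂ (v i) f) • v i‖ ^ 2 * ‖f‖ ^ 2 := by ring
      _ ≤ (C * S) * ‖f‖ ^ 2 := mul_le_mul_of_nonneg_right h (by positivity)
  rcases hS0.eq_or_lt with h4 | h4
  · rw [← h4]; positivity
  · have : S * S ≤ (C * ‖f‖ ^ 2) * S := by nlinarith only [h3]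
    exact le_of_mul_le_mul_right this h4

/-- Bessel inequality with an almost orthogonal family (Schur test). -/
theorem sum_inner_sq_le (s : Finset ι) (v : ι → H) (f : H) (K : ι → ι → ℝ) (C : ℝ)
    (hC0 : 0 ≤ C)
    (hK : ∀ i ∈ s, ∀ j ∈ s, ‖inner ℂ (v i) (v j)‖ ≤ K i j)
    (hsymm : ∀ i ∈ s, ∀ j ∈ s, K i j = K j i)
    (hC : ∀ i ∈ s, ∑ j ∈ s, K i j ≤ C) :
    ∑ i ∈ s, ‖inner ℂ (v i) f‖ ^ 2 ≤ C * ‖f‖ ^ 2 :=
  sum_inner_sq_le_of s v f C hC0 (norm_sum_sq_le s v _ K C hK hsymm hC)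

end Abstract

section L2

variable {α : Type*} [MeasurableSpace α] {μ : Measure α} {ι : Type*}

theorem inner_toLp {f g : α → ℂ} (hf : MemLp f 2 μ) (hg : MemLp g 2 μ) :
    inner ℂ (hf.toLp f) (hg.toLp g) = ∫ x, conj (f x) * g x ∂μ := by
  rw [L2.inner_def]
  refine integral_congr_ae ?_
  filter_upwards [hf.coeFn_toLp, hg.coeFn_toLp] with x h1 h2
  rw [h1, h2]
  simp only [RCLike.inner_apply]
  ring

theorem norm_toLp_sq {f : α → ℂ} (hf : MemLp f 2 μ) :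
    ‖hf.toLp f‖ ^ 2 = ∫ x, ‖f x‖ ^ 2 ∂μ := by
  have h1 : ((‖hf.toLp f‖ ^ 2 : ℝ) : ℂ) = ((∫ x, ‖f x‖ ^ 2 ∂μ : ℝ) : ℂ) := by
    have := inner_self_eq_norm_sq_to_K (𝕜 := ℂ) (hf.toLp f)
    rw [inner_toLp hf hf] at this
    have e : (fun x => conj (f x) * f x) = fun x => (((‖f x‖ ^ 2 : ℝ)) : ℂ) := by
      funext x
      rw [← Complex.normSq_eq_conj_mul_self, Complex.normSq_eq_norm_sq]
    rw [e, integral_complex_ofReal] at this
    rw [this]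
    push_cast
    rfl
  exact_mod_cast h1

theorem toLp_sum (s : Finset ι) (v : ι → α → ℂ) (hv : ∀ i ∈ s, MemLp (v i) 2 μ) (c : ι → ℂ)
    (w : ι → Lp ℂ 2 μ) (hw : ∀ i (hi : i ∈ s), w i = (hv i hi).toLp (v i))
    (h : MemLp (fun x => ∑ i ∈ s, c i * v i x) 2 μ) :
    h.toLp _ = ∑ i ∈ s, c i • w i := by
  classical
  apply Lp.ext
  refine h.coeFn_toLp.trans ?_
  have key : ∀ t : Finset ι, t ⊆ s →
      (⇑(∑ i ∈ t, c i • w i) : α → ℂ) =ᵐ[μ] fun x => ∑ i ∈ t, c i * v i x := by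
    intro t
    induction t using Finset.induction_on with
    | empty =>
      intro _
      simp only [Finset.sum_empty]
      exact Lp.coeFn_zero ℂ 2 μ
    | insert a t ha ih =>
      intro hts
      have h1 := ih (fun i hi => hts (Finset.mem_insert_of_mem hi))
      have has : a ∈ s := hts (Finset.mem_insert_self a t)
      rw [Finset.sum_insert ha]
      filter_upwards [Lp.coeFn_add (c a • w a) (∑ i ∈ t, c i • w i), Lp.coeFn_smul (c a) (w a), h1,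
        (hv a has).coeFn_toLp] with x e1 e2 e3 e4
      rw [e1, Pi.add_apply, e2, e3, Finset.sum_insert ha, Pi.smul_apply, hw a has, e4, smul_eq_mul]
  exact (key s (Finset.Subset.refl s)).symm

theorem memLp_sum (s : Finset ι) (v : ι → α → ℂ) (hv : ∀ i ∈ s, MemLp (v i) 2 μ) (c : ι → ℂ) :
    MemLp (fun x => ∑ i ∈ s, c i * v i x) 2 μ :=
  memLp_finsetSum s fun i hi => (hv i hi).const_mul (c i)

/-- Synthesis bound from a Gram kernel with bounded row sums, for functions. -/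
theorem integral_norm_sum_sq_le (s : Finset ι) (v : ι → α → ℂ) (hv : ∀ i ∈ s, MemLp (v i) 2 μ)
    (c : ι → ℂ) (K : ι → ι → ℝ) (C : ℝ)
    (hK : ∀ i ∈ s, ∀ j ∈ s, ‖∫ x, conj (v i x) * v j x ∂μ‖ ≤ K i j)
    (hsymm : ∀ i ∈ s, ∀ j ∈ s, K i j = K j i)
    (hC : ∀ i ∈ s, ∑ j ∈ s, K i j ≤ C) :
    ∫ x, ‖∑ i ∈ s, c i * v i x‖ ^ 2 ∂μ ≤ C * ∑ i ∈ s, ‖c i‖ ^ 2 := by
  classical
  let w : ι → Lp ℂ 2 μ := fun i => if h : i ∈ s then (hv i h).toLp (v i) else 0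
  have hw : ∀ i (hi : i ∈ s), w i = (hv i hi).toLp (v i) := fun i hi => dif_pos hi
  rw [← norm_toLp_sq (memLp_sum s v hv c), toLp_sum s v hv c w hw]
  refine norm_sum_sq_le s w c K C (fun i hi j hj => ?_) hsymm hC
  rw [hw i hi, hw j hj, inner_toLp]
  exact hK i hi j hj

/-- Bessel inequality from a Gram kernel with bounded row sums, for functions. -/
theorem sum_integral_sq_le (s : Finset ι) (v : ι → α → ℂ) (hv : ∀ i ∈ s, MemLp (v i) 2 μ)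
    (f : α → ℂ) (hf : MemLp f 2 μ) (K : ι → ι → ℝ) (C : ℝ) (hC0 : 0 ≤ C)
    (hK : ∀ i ∈ s, ∀ j ∈ s, ‖∫ x, conj (v i x) * v j x ∂μ‖ ≤ K i j)
    (hsymm : ∀ i ∈ s, ∀ j ∈ s, K i j = K j i)
    (hC : ∀ i ∈ s, ∑ j ∈ s, K i j ≤ C) :
    ∑ i ∈ s, ‖∫ x, conj (v i x) * f x ∂μ‖ ^ 2 ≤ C * ∫ x, ‖f x‖ ^ 2 ∂μ := by
  classical
  let w : ι → Lp ℂ 2 μ := fun i => if h : i ∈ s then (hv i h).toLp (v i) else 0
  have hw : ∀ i (hi : i ∈ s), w i = (hv i hi).toLp (v i) := fun i hi => dif_pos hi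
  have h1 := sum_inner_sq_le s w (hf.toLp f) K C hC0 (fun i hi j hj => by
    rw [hw i hi, hw j hj, inner_toLp]
    exact hK i hi j hj) hsymm hC
  rw [norm_toLp_sq hf] at h1
  refine le_trans (le_of_eq ?_) h1
  refine Finset.sum_congr rfl fun i hi => ?_
  rw [hw i hi, inner_toLp]

/-- From synthesis to analysis, for functions (no kernel). -/
theorem sum_integral_sq_le_of (s : Finset ι) (v : ι → α → ℂ) (hv : ∀ i ∈ s, MemLp (v i) 2 μ)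
    (f : α → ℂ) (hf : MemLp f 2 μ) (C : ℝ) (hC0 : 0 ≤ C)
    (h : ∀ c : ι → ℂ, ∫ x, ‖∑ i ∈ s, c i * v i x‖ ^ 2 ∂μ ≤ C * ∑ i ∈ s, ‖c i‖ ^ 2) :
    ∑ i ∈ s, ‖∫ x, conj (v i x) * f x ∂μ‖ ^ 2 ≤ C * ∫ x, ‖f x‖ ^ 2 ∂μ := by
  classical
  let w : ι → Lp ℂ 2 μ := fun i => if h : i ∈ s then (hv i h).toLp (v i) else 0
  have hw : ∀ i (hi : i ∈ s), w i = (hv i hi).toLp (v i) := fun i hi => dif_pos hi
  have h1 := sum_inner_sq_le_of s w (hf.toLp f) C hC0 (by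
    rw [← toLp_sum s v hv (fun i => inner ℂ (w i) (hf.toLp f)) w hw (memLp_sum s v hv _),
      norm_toLp_sq]
    exact h _)
  rw [norm_toLp_sq hf] at h1
  refine le_trans (le_of_eq ?_) h1
  refine Finset.sum_congr rfl fun i hi => ?_
  rw [hw i hi, inner_toLp]

/-- Block form: the integrals vanish unless `b i = b j`; then only the blocks count. -/
theorem integral_norm_sum_sq_le_block {β : Type*} [DecidableEq β] (b : ι → β)
    (s : Finset ι) (v : ι → α → ℂ) (hv : ∀ i ∈ s, MemLp (v i) 2 μ)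
    (c : ι → ℂ) (K : ι → ι → ℝ) (C : ℝ)
    (h0 : ∀ i ∈ s, ∀ j ∈ s, b i ≠ b j → ∫ x, conj (v i x) * v j x ∂μ = 0)
    (hK : ∀ i ∈ s, ∀ j ∈ s, b i = b j → ‖∫ x, conj (v i x) * v j x ∂μ‖ ≤ K i j)
    (hsymm : ∀ i ∈ s, ∀ j ∈ s, b i = b j → K i j = K j i)
    (hC : ∀ i ∈ s, ∑ j ∈ s with b j = b i, K i j ≤ C) :
    ∫ x, ‖∑ i ∈ s, c i * v i x‖ ^ 2 ∂μ ≤ C * ∑ i ∈ s, ‖c i‖ ^ 2 := by
  refine integral_norm_sum_sq_le s v hv c (fun i j => if b i = b j then K i j else 0) C ?_ ?_ ?_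
  · intro i hi j hj
    by_cases h : b i = b j
    · simpa [h] using hK i hi j hj h
    · simp [h, h0 i hi j hj h]
  · intro i hi j hj
    by_cases h : b i = b j
    · simp [h, hsymm i hi j hj h]
    · simp [h, Ne.symm h]
  · intro i hi
    refine le_trans (le_of_eq ?_) (hC i hi)
    rw [Finset.sum_filter]
    exact Finset.sum_congr rfl fun j _ => by simp only [eq_comm]

end L2

end Vale.Agent.P091.CH.H663
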